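import Mathlib

/-!
# P086: group von Neumann algebras on an abstract `ℓ²(G)` and group-like spatial isomorphisms

A Hilbert basis `b : HilbertBasis G ℂ E` indexed by a group `G` is the same thing as a unitary
identification of `E` with `ℓ²(G)`; `b x` plays the role of `δ_x`.  The left translation by `g`
is the bounded operator with `δ_x ↦ δ_{g x}`, i.e. `λ(g)`.  The group von Neumann algebra is the
double commutant of the set of left translations.
-/

namespace Vale.Agent.Lib.P086

open scoped InnerProductSpace

variable {G : Type*} {E : Type*} [NormedAddCommGroup E] [InnerProductSpace ℂ E]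

/-- `T` is the left translation by `g` with respect to the Hilbert basis `b` indexed by `G`:
it sends the basis vector `b x` (that is, `δ_x`) to `b (g * x)` (that is, `δ_{g x}`).  On
`ℓ²(G)` with its standard basis this says `T = λ(g)`, where `(λ(g) ξ)(h) = ξ(g⁻¹ h)`. -/
def IsLeftTranslation [Mul G] (b : HilbertBasis G ℂ E) (g : G) (T : E →L[ℂ] E) : Prop :=
  ∀ x : G, T (b x) = b (g * x)

/-- The group von Neumann algebra `L(G) = λ(G)''` realised on `E ≅ ℓ²(G)`: the double commutant
in `B(E)` of the set of all left translations. -/
def groupVN [Mul G] (b : HilbertBasis G ℂ E) : Set (E →L[ℂ] E) :=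
  Set.centralizer (Set.centralizer {T | ∃ g : G, IsLeftTranslation b g T})

/-- Two bounded operators that agree on a Hilbert basis are equal. -/
theorem ext_basis (b : HilbertBasis G ℂ E) {S T : E →L[ℂ] E} (h : ∀ x, S (b x) = T (b x)) :
    S = T := by
  refine ContinuousLinearMap.ext_on (s := Set.range b) ?_ ?_
  · have := b.dense_span
    rw [Submodule.dense_iff_topologicalClosure_eq_top]
    exact this
  · rintro _ ⟨x, rfl⟩
    exact h x

theorem IsLeftTranslation.unique [Mul G] {b : HilbertBasis G ℂ E} {g : G} {S T : E →L[ℂ] E}
    (hS : IsLeftTranslation b g S) (hT : IsLeftTranslation b g T) : S = T :=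
  ext_basis b fun x => by rw [hS x, hT x]

section Group

variable [Group G] [CompleteSpace E]

/-- The translated Hilbert basis `x ↦ b (g * x)`. -/
noncomputable def shiftBasis (b : HilbertBasis G ℂ E) (g : G) : HilbertBasis G ℂ E :=
  HilbertBasis.mk (v := fun x => b (g * x))
    (b.orthonormal.comp _ (mul_right_injective g))
    (by
      have h : Set.range (fun x => b (g * x)) = Set.range b := by
        ext v
        constructor
        · rintro ⟨x, rfl⟩
          exact ⟨g * x, rfl⟩
        · rintro ⟨x, rfl⟩
          exact ⟨g⁻¹ * x, by simp⟩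
      rw [h, b.dense_span])

theorem shiftBasis_apply (b : HilbertBasis G ℂ E) (g x : G) : shiftBasis b g x = b (g * x) := by
  unfold shiftBasis
  rw [HilbertBasis.coe_mk]

/-- The left translation operator `λ(g)` with respect to `b`. -/
noncomputable def trans (b : HilbertBasis G ℂ E) (g : G) : E →L[ℂ] E :=
  ((b.repr.trans (shiftBasis b g).repr.symm : E ≃ₗᵢ[ℂ] E) : E →L[ℂ] E)

theorem trans_apply (b : HilbertBasis G ℂ E) (g x : G) : trans b g (b x) = b (g * x) := by
  classical
  unfold trans
  show (shiftBasis b g).repr.symm (b.repr (b x)) = b (g * x)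
  rw [b.repr_self, HilbertBasis.repr_symm_single, shiftBasis_apply]

theorem isLeftTranslation_trans (b : HilbertBasis G ℂ E) (g : G) :
    IsLeftTranslation b g (trans b g) := trans_apply b g

theorem IsLeftTranslation.eq_trans {b : HilbertBasis G ℂ E} {g : G} {T : E →L[ℂ] E}
    (hT : IsLeftTranslation b g T) : T = trans b g :=
  hT.unique (isLeftTranslation_trans b g)

theorem trans_one (b : HilbertBasis G ℂ E) : trans b (1 : G) = ContinuousLinearMap.id ℂ E :=
  ext_basis b fun x => by simp [trans_apply]

theorem trans_mul (b : HilbertBasis G ℂ E) (g h : G) :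
    trans b (g * h) = (trans b g).comp (trans b h) :=
  ext_basis b fun x => by simp [trans_apply, mul_assoc]

theorem trans_mem_groupVN (b : HilbertBasis G ℂ E) (g : G) : trans b g ∈ groupVN b :=
  Set.subset_centralizer_centralizer ⟨g, isLeftTranslation_trans b g⟩

/-- Distinct group elements have linearly independent translations: `λ(g) = c • λ(h)` forces
`g = h`. -/
theorem eq_of_trans_eq_smul (b : HilbertBasis G ℂ E) {g h : G} {c : ℂ}
    (hc : trans b g = c • trans b h) : g = h := by
  by_contra hne
  have h1 : b g = c • b h := by
    have := congrArg (fun T : E →L[ℂ] E => T (b 1)) hc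
    simpa [trans_apply] using this
  have h2 : ⟪b h, b g⟫_ℂ = 0 := b.orthonormal.2 (Ne.symm hne)
  rw [h1, inner_smul_right, inner_self_eq_norm_sq_to_K, b.orthonormal.1 h] at h2
  have hc0 : c = 0 := by simpa using h2
  have h3 : ‖b g‖ = 1 := b.orthonormal.1 g
  rw [h1, hc0, zero_smul, norm_zero] at h3
  exact zero_ne_one h3

end Group

end Vale.Agent.Lib.P086
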