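import Mathlib

/-!
# P086: free groups have the unique product property

A group all of whose nontrivial subgroups admit a nontrivial homomorphism to `ℤ` has unique
products (Burns-Hale type argument).  Subgroups of free groups are free (Nielsen-Schreier), and a
nontrivial free group maps onto `ℤ`, so free groups have unique products.
-/

namespace Vale.Agent.Lib.P086

open Finset

universe u

/-- Every nontrivial subgroup of `G` admits a nontrivial homomorphism to `ℤ`. -/
def SubgroupsIndicable (G : Type*) [Group G] : Prop :=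
  ∀ H : Subgroup G, H ≠ ⊥ → ∃ f : H →* Multiplicative ℤ, f ≠ 1

theorem subgroupsIndicable_of_isFreeGroup (G : Type u) [Group G] [IsFreeGroup G] :
    SubgroupsIndicable G := by
  intro H hH
  have : IsFreeGroup H := subgroupIsFreeOfIsFree H
  by_cases hgen : Nonempty (IsFreeGroup.Generators H)
  · obtain ⟨g⟩ := hgen
    refine ⟨IsFreeGroup.lift (fun _ => Multiplicative.ofAdd 1), ?_⟩
    intro h
    have h1 := congrArg (fun f : H →* Multiplicative ℤ => f (IsFreeGroup.of g)) h
    simp only [IsFreeGroup.lift_of, MonoidHom.one_apply] at h1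
    have h2 := congrArg Multiplicative.toAdd h1
    simp at h2
  · exfalso
    apply hH
    rw [Subgroup.eq_bot_iff_forall]
    intro x hx
    have h1 : MonoidHom.id H = 1 := IsFreeGroup.ext_hom fun a => (hgen ⟨a⟩).elim
    have h2 := congrArg (fun f : H →* H => f ⟨x, hx⟩) h1
    simpa using congrArg Subtype.val h2

variable {G : Type*} [Group G]

theorem exists_uniqueMul_of_subgroupsIndicable (hG : SubgroupsIndicable G) :
    ∀ (n : ℕ) (A B : Finset G), A.Nonempty → B.Nonempty → A.card + B.card = n →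
      ∃ a0 ∈ A, ∃ b0 ∈ B, UniqueMul A B a0 b0 := by
  classical
  intro n
  induction n using Nat.strong_induction_on with
  | _ n ih =>
  intro A B hA hB hn
  obtain ⟨a, ha⟩ := hA
  obtain ⟨b, hb⟩ := hB
  by_cases hcard : A.card ≤ 1 ∧ B.card ≤ 1
  · exact UniqueMul.of_card_le_one ⟨a, ha⟩ ⟨b, hb⟩ hcard.1 hcard.2
  -- translated sets containing `1`
  set C : Finset G := A.image (fun x => a⁻¹ * x) with hC
  set D : Finset G := B.image (fun x => x * b⁻¹) with hD
  have h1C : (1 : G) ∈ C := mem_image.mpr ⟨a, ha, inv_mul_cancel a⟩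
  have h1D : (1 : G) ∈ D := mem_image.mpr ⟨b, hb, mul_inv_cancel b⟩
  have hcC : C.card = A.card := card_image_of_injective _ (mul_right_injective _)
  have hcD : D.card = B.card := card_image_of_injective _ (mul_left_injective _)
  set H : Subgroup G := Subgroup.closure ((C : Set G) ∪ (D : Set G)) with hH
  have hCH : ∀ c ∈ C, c ∈ H := fun c hc => Subgroup.subset_closure (Or.inl hc)
  have hDH : ∀ d ∈ D, d ∈ H := fun d hd => Subgroup.subset_closure (Or.inr hd)
  have hHne : H ≠ ⊥ := by
    intro hbot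
    apply hcard
    constructor
    · rw [← hcC]
      apply card_le_one.mpr
      intro x hx y hy
      have hx' := hCH x hx
      have hy' := hCH y hy
      rw [hbot, Subgroup.mem_bot] at hx' hy'
      rw [hx', hy']
    · rw [← hcD]
      apply card_le_one.mpr
      intro x hx y hy
      have hx' := hDH x hx
      have hy' := hDH y hy
      rw [hbot, Subgroup.mem_bot] at hx' hy'
      rw [hx', hy']
  obtain ⟨f, hf⟩ := hG H hHne
  -- the integer-valued function `φ`, additive on `H`
  set φ : G → ℤ := fun g => if h : g ∈ H then Multiplicative.toAdd (f ⟨g, h⟩) else 0 with hφ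
  have φ_mul : ∀ x ∈ H, ∀ y ∈ H, φ (x * y) = φ x + φ y := by
    intro x hx y hy
    simp only [hφ, dif_pos hx, dif_pos hy, dif_pos (H.mul_mem hx hy)]
    have h1 : (⟨x * y, H.mul_mem hx hy⟩ : H) = ⟨x, hx⟩ * ⟨y, hy⟩ := rfl
    rw [h1, map_mul, toAdd_mul]
  have φ_one : φ 1 = 0 := by
    simp only [hφ, dif_pos H.one_mem]
    have h1 : (⟨1, H.one_mem⟩ : H) = 1 := rfl
    rw [h1, map_one, toAdd_one]
  -- `φ` is not identically zero on `C ∪ D`
  have hnz : ∃ x, (x ∈ C ∨ x ∈ D) ∧ φ x ≠ 0 := by
    by_contra hall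
    apply hf
    have hle : H ≤ (f.ker).map H.subtype := by
      refine (Subgroup.closure_le _).mpr ?_
      intro x hx
      have hxH : x ∈ H := Subgroup.subset_closure hx
      have h0 : φ x = 0 := by
        by_contra h0
        exact hall ⟨x, hx, h0⟩
      simp only [hφ, dif_pos hxH] at h0
      refine ⟨⟨x, hxH⟩, ?_, rfl⟩
      rw [SetLike.mem_coe, MonoidHom.mem_ker]
      exact toAdd_eq_zero.mp h0
    ext ⟨x, hx⟩
    obtain ⟨y, hy, hyx⟩ := hle hx
    have hy' : y = ⟨x, hx⟩ := Subtype.ext hyx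
    rw [← hy']
    rw [SetLike.mem_coe, MonoidHom.mem_ker] at hy
    rw [hy]
    rfl
  obtain ⟨c₁, hc₁, hc₁max⟩ := C.exists_max_image φ ⟨1, h1C⟩
  obtain ⟨d₁, hd₁, hd₁max⟩ := D.exists_max_image φ ⟨1, h1D⟩
  set C₁ : Finset G := C.filter (fun x => φ x = φ c₁) with hC₁
  set D₁ : Finset G := D.filter (fun x => φ x = φ d₁) with hD₁
  have hC₁ne : C₁.Nonempty := ⟨c₁, mem_filter.mpr ⟨hc₁, rfl⟩⟩
  have hD₁ne : D₁.Nonempty := ⟨d₁, mem_filter.mpr ⟨hd₁, rfl⟩⟩
  have hCle : C₁.card ≤ C.card := card_le_card (filter_subset _ _)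
  have hDle : D₁.card ≤ D.card := card_le_card (filter_subset _ _)
  have hlt : C₁.card + D₁.card < n := by
    obtain ⟨x, hx, hx0⟩ := hnz
    rcases hx with hx | hx
    · have hss : C₁ ⊂ C := by
        refine ⟨filter_subset _ _, fun hsub => ?_⟩
        have h1 := (mem_filter.mp (hsub h1C)).2
        have h2 := (mem_filter.mp (hsub hx)).2
        rw [φ_one] at h1
        rw [← h1] at h2
        exact hx0 h2
      have := card_lt_card hss
      omega
    · have hss : D₁ ⊂ D := by
        refine ⟨filter_subset _ _, fun hsub => ?_⟩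
        have h1 := (mem_filter.mp (hsub h1D)).2
        have h2 := (mem_filter.mp (hsub hx)).2
        rw [φ_one] at h1
        rw [← h1] at h2
        exact hx0 h2
      have := card_lt_card hss
      omega
  obtain ⟨c₀, hc₀, d₀, hd₀, hu⟩ := ih _ hlt C₁ D₁ hC₁ne hD₁ne rfl
  have hc₀C := (mem_filter.mp hc₀).1
  have hc₀φ := (mem_filter.mp hc₀).2
  have hd₀D := (mem_filter.mp hd₀).1
  have hd₀φ := (mem_filter.mp hd₀).2
  have huCD : UniqueMul C D c₀ d₀ := by
    intro c d hc hd he
    have e1 : φ c + φ d = φ c₁ + φ d₁ := by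
      rw [← φ_mul c (hCH c hc) d (hDH d hd), he, φ_mul c₀ (hCH _ hc₀C) d₀ (hDH _ hd₀D), hc₀φ, hd₀φ]
    have l1 := hc₁max c hc
    have l2 := hd₁max d hd
    have hcφ : φ c = φ c₁ := by omega
    have hdφ : φ d = φ d₁ := by omega
    exact hu (mem_filter.mpr ⟨hc, hcφ⟩) (mem_filter.mpr ⟨hd, hdφ⟩) he
  refine ⟨a * c₀, ?_, d₀ * b, ?_, ?_⟩
  · obtain ⟨x, hx, hxe⟩ := mem_image.mp hc₀C
    rw [← hxe]
    simpa using hx
  · obtain ⟨y, hy, hye⟩ := mem_image.mp hd₀D
    rw [← hye]
    simpa using hy
  · intro x y hx hy he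
    have h3 := huCD (mem_image.mpr ⟨x, hx, rfl⟩) (mem_image.mpr ⟨y, hy, rfl⟩) (by
      calc a⁻¹ * x * (y * b⁻¹) = a⁻¹ * (x * y) * b⁻¹ := by group
        _ = a⁻¹ * (a * c₀ * (d₀ * b)) * b⁻¹ := by rw [he]
        _ = c₀ * d₀ := by group)
    obtain ⟨h1, h2⟩ := h3
    constructor
    · rw [← h1]
      group
    · rw [← h2]
      group

theorem uniqueProds_of_subgroupsIndicable (hG : SubgroupsIndicable G) : UniqueProds G where
  uniqueMul_of_nonempty {A B} hA hB :=
    exists_uniqueMul_of_subgroupsIndicable hG _ A B hA hB rfl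

/-- Free groups have unique products. -/
theorem uniqueProds_freeGroup (α : Type u) : UniqueProds (FreeGroup α) :=
  uniqueProds_of_subgroupsIndicable (subgroupsIndicable_of_isFreeGroup (FreeGroup α))

/-- Free groups have two unique products. -/
theorem twoUniqueProds_freeGroup (α : Type u) : TwoUniqueProds (FreeGroup α) :=
  haveI := uniqueProds_freeGroup α
  UniqueProds.toTwoUniqueProds_of_group

end Vale.Agent.Lib.P086
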