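import Vale.Agent.Lib.P086.Spatial
import Vale.Agent.Lib.P086.UniqueProds

/-!
# P086: finitely supported operators (the group algebra inside `L(G)`) and trivial units
-/

namespace Vale.Agent.Lib.P086

open scoped InnerProductSpace

section Units

variable {G : Type*} [Group G]

/-- In the complex group algebra of a group with two unique products, every element with a
right inverse is a monomial (trivial units). -/
theorem exists_single_of_mul_eq_one [TwoUniqueProds G] {x y : MonoidAlgebra ℂ G}
    (h : x * y = 1) : ∃ (g : G) (c : ℂ), x = MonoidAlgebra.single g c := by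
  classical
  have hx : x ≠ 0 := by
    rintro rfl
    rw [zero_mul] at h
    exact zero_ne_one h
  have hy : y ≠ 0 := by
    rintro rfl
    rw [mul_zero] at h
    exact zero_ne_one h
  have hxs : x.coeff.support.Nonempty := by
    rw [Finsupp.support_nonempty_iff]
    simpa using hx
  have hys : y.coeff.support.Nonempty := by
    rw [Finsupp.support_nonempty_iff]
    simpa using hy
  have hcard : ¬ 1 < x.coeff.support.card * y.coeff.support.card := by
    intro hlt
    obtain ⟨p1, hp1, p2, hp2, hne, hu1, hu2⟩ := TwoUniqueProds.uniqueMul_of_one_lt_card hlt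
    rw [Finset.mem_product] at hp1 hp2
    have key : ∀ p : G × G, p ∈ x.coeff.support ×ˢ y.coeff.support →
        UniqueMul x.coeff.support y.coeff.support p.1 p.2 → p.1 * p.2 = 1 := by
      intro p hp hu
      rw [Finset.mem_product] at hp
      have h1 := MonoidAlgebra.coeff_mul_mul_of_uniqueMul hu
      rw [h, MonoidAlgebra.one_def, MonoidAlgebra.coeff_single, Finsupp.single_apply] at h1
      by_contra hne1
      rw [if_neg (fun h' => hne1 h'.symm)] at h1
      have h2 := Finsupp.mem_support_iff.mp hp.1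
      have h3 := Finsupp.mem_support_iff.mp hp.2
      exact mul_ne_zero h2 h3 h1.symm
    have e1 := key p1 (Finset.mem_product.mpr hp1) hu1
    have e2 := key p2 (Finset.mem_product.mpr hp2) hu2
    have := hu1 hp2.1 hp2.2 (by rw [e1, e2])
    exact hne (Prod.ext this.1 this.2).symm
  have hxc : x.coeff.support.card = 1 := by
    have h1 := hxs.card_pos
    have h2 := hys.card_pos
    by_contra hne
    have h3 : 2 ≤ x.coeff.support.card := by omega
    apply hcard
    calc 1 < 2 * 1 := by norm_num
      _ ≤ x.coeff.support.card * y.coeff.support.card := Nat.mul_le_mul h3 h2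
  obtain ⟨g, -, hg⟩ := Finsupp.card_support_eq_one.mp hxc
  refine ⟨g, x.coeff g, ?_⟩
  apply MonoidAlgebra.coeff_injective
  rw [MonoidAlgebra.coeff_single]
  exact hg

end Units

variable {G : Type*} [Group G] {E : Type*} [NormedAddCommGroup E] [InnerProductSpace ℂ E]
  [CompleteSpace E]

/-- The left translations as a monoid homomorphism `G →* B(E)`. -/
noncomputable def transHom (b : HilbertBasis G ℂ E) : G →* (E →L[ℂ] E) where
  toFun := trans b
  map_one' := trans_one b
  map_mul' := trans_mul b

/-- The left regular representation of the group algebra `ℂ[G]` on `E ≅ ℓ²(G)`. -/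
noncomputable def rho (b : HilbertBasis G ℂ E) : MonoidAlgebra ℂ G →ₐ[ℂ] (E →L[ℂ] E) :=
  MonoidAlgebra.lift ℂ (E →L[ℂ] E) G (transHom b)

theorem rho_single (b : HilbertBasis G ℂ E) (g : G) (c : ℂ) :
    rho b (MonoidAlgebra.single g c) = c • trans b g :=
  MonoidAlgebra.lift_single _ _ _

/-- Coefficient recovery: `⟨δ_h, ρ(x) δ_1⟩ = x_h`. -/
theorem inner_rho_apply (b : HilbertBasis G ℂ E) (x : MonoidAlgebra ℂ G) (h : G) :
    ⟪b h, rho b x (b 1)⟫_ℂ = x.coeff h := by
  classical
  induction x using MonoidAlgebra.induction_linear with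
  | zero => simp
  | add x y hx hy =>
    rw [map_add, add_apply, inner_add_right, hx, hy, MonoidAlgebra.coeff_add,
      Finsupp.add_apply]
  | single g c =>
    rw [rho_single, smul_apply, trans_apply, mul_one, inner_smul_right,
      MonoidAlgebra.coeff_single, Finsupp.single_apply, orthonormal_iff_ite.mp b.orthonormal h g]
    by_cases hgh : g = h
    · subst hgh
      simp
    · rw [if_neg hgh, if_neg (fun h' => hgh h'.symm), mul_zero]

theorem rho_injective (b : HilbertBasis G ℂ E) : Function.Injective (rho b) := by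
  intro x y hxy
  apply MonoidAlgebra.coeff_injective
  ext h
  rw [← inner_rho_apply b x h, ← inner_rho_apply b y h, hxy]

/-- The linear span of the left translations: the group algebra `ℂ[G]` inside `L(G)`. -/
def transSpan (b : HilbertBasis G ℂ E) : Submodule ℂ (E →L[ℂ] E) :=
  Submodule.span ℂ {T | ∃ g : G, IsLeftTranslation b g T}

theorem exists_rho_eq (b : HilbertBasis G ℂ E) {T : E →L[ℂ] E} (hT : T ∈ transSpan b) :
    ∃ x : MonoidAlgebra ℂ G, rho b x = T := by
  unfold transSpan at hT
  induction hT using Submodule.span_induction with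
  | mem T hT =>
    obtain ⟨g, hg⟩ := hT
    exact ⟨MonoidAlgebra.single g 1, by rw [rho_single, one_smul, hg.eq_trans]⟩
  | zero => exact ⟨0, map_zero _⟩
  | add S T _ _ hS hT =>
    obtain ⟨x, rfl⟩ := hS
    obtain ⟨y, rfl⟩ := hT
    exact ⟨x + y, map_add _ _ _⟩
  | smul c T _ hT =>
    obtain ⟨x, rfl⟩ := hT
    exact ⟨c • x, map_smul _ _ _⟩

/-- The translation by `g` as a unitary. -/
noncomputable def transEquiv (b : HilbertBasis G ℂ E) (g : G) : E ≃ₗᵢ[ℂ] E :=
  b.repr.trans (shiftBasis b g).repr.symm

theorem coe_transEquiv (b : HilbertBasis G ℂ E) (g : G) :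
    ((transEquiv b g : E ≃ₗᵢ[ℂ] E) : E →L[ℂ] E) = trans b g := rfl

theorem adjoint_trans (b : HilbertBasis G ℂ E) (g : G) :
    ContinuousLinearMap.adjoint (trans b g) = trans b g⁻¹ := by
  rw [← coe_transEquiv, LinearIsometryEquiv.adjoint_eq_symm]
  refine ext_basis b fun x => ?_
  rw [trans_apply]
  show (transEquiv b g).symm (b x) = b (g⁻¹ * x)
  rw [LinearIsometryEquiv.symm_apply_eq]
  have h1 : (transEquiv b g) (b (g⁻¹ * x)) = trans b g (b (g⁻¹ * x)) := rfl
  rw [h1, trans_apply, mul_inv_cancel_left]

theorem adjoint_mem_transSpan (b : HilbertBasis G ℂ E) {T : E →L[ℂ] E} (hT : T ∈ transSpan b) :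
    ContinuousLinearMap.adjoint T ∈ transSpan b := by
  unfold transSpan at hT ⊢
  induction hT using Submodule.span_induction with
  | mem T hT =>
    obtain ⟨g, hg⟩ := hT
    rw [hg.eq_trans, adjoint_trans]
    exact Submodule.subset_span ⟨g⁻¹, isLeftTranslation_trans b g⁻¹⟩
  | zero => rw [map_zero]; exact Submodule.zero_mem _
  | add S T _ _ hS hT => rw [map_add]; exact Submodule.add_mem _ hS hT
  | smul c T _ hT => rw [map_smulₛₗ]; exact Submodule.smul_mem _ _ hT

/-- A finitely supported operator with a finitely supported right inverse is a scalar multiple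
of a single translation, when the group has two unique products. -/
theorem eq_smul_trans_of_mul_eq_one [TwoUniqueProds G] (b : HilbertBasis G ℂ E)
    {S T : E →L[ℂ] E} (hS : S ∈ transSpan b) (hT : T ∈ transSpan b) (h : S * T = 1) :
    ∃ (c : ℂ) (g : G), S = c • trans b g := by
  obtain ⟨x, rfl⟩ := exists_rho_eq b hS
  obtain ⟨y, rfl⟩ := exists_rho_eq b hT
  have hxy : x * y = 1 := by
    apply rho_injective b
    rw [map_mul, h, map_one]
  obtain ⟨g, c, rfl⟩ := exists_single_of_mul_eq_one hxy
  exact ⟨c, g, rho_single b g c⟩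

section Main

variable {E₁ E₂ : Type*} [NormedAddCommGroup E₁] [InnerProductSpace ℂ E₁] [CompleteSpace E₁]
  [NormedAddCommGroup E₂] [InnerProductSpace ℂ E₂] [CompleteSpace E₂] {H : Type*} [Group H]

/-- **Algebraic spatial isomorphisms come from group isomorphisms.**  Let `U` be a unitary
`ℓ²(G) → ℓ²(H)` with `U L(G) U⁻¹ = L(H)`, where `H` has two unique products, and suppose that
for every `g` in a generating set `S` of `G` the operator `U λ(g) U⁻¹` is a finite linear
combination of translations `λ(h)`.  Then `G ≃* H`. -/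
theorem nonempty_mulEquiv_of_span [TwoUniqueProds H] (b₁ : HilbertBasis G ℂ E₁)
    (b₂ : HilbertBasis H ℂ E₂) (U : E₁ ≃ₗᵢ[ℂ] E₂)
    (hU : ∀ T : E₁ →L[ℂ] E₁, T ∈ groupVN b₁ ↔ conj U T ∈ groupVN b₂)
    (S : Set G) (hS : Subgroup.closure S = ⊤)
    (hgen : ∀ g ∈ S, conj U (trans b₁ g) ∈ transSpan b₂) : Nonempty (G ≃* H) := by
  refine nonempty_mulEquiv b₁ b₂ U hU S hS fun g hg => ?_
  have hX := hgen g hg
  set W : E₂ ≃ₗᵢ[ℂ] E₂ := U.symm.trans ((transEquiv b₁ g).trans U) with hW
  have hXW : conj U (trans b₁ g) = (W : E₂ →L[ℂ] E₂) := by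
    ext v
    rw [conj_apply, ← coe_transEquiv]
    rfl
  have hadj := adjoint_mem_transSpan b₂ hX
  have hmul : conj U (trans b₁ g) * ContinuousLinearMap.adjoint (conj U (trans b₁ g)) = 1 := by
    rw [hXW, LinearIsometryEquiv.adjoint_eq_symm]
    ext v
    simp
  obtain ⟨c, h, hc⟩ := eq_smul_trans_of_mul_eq_one b₂ hX hadj hmul
  exact ⟨c, h, hc⟩

end Main

end Vale.Agent.Lib.P086
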