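import Vale.Agent.Lib.P086.Basic

/-!
# P086: spatial isomorphisms of group von Neumann algebras that are group-like on generators
-/

namespace Vale.Agent.Lib.P086

open scoped InnerProductSpace

variable {E₁ E₂ : Type*} [NormedAddCommGroup E₁] [InnerProductSpace ℂ E₁]
  [NormedAddCommGroup E₂] [InnerProductSpace ℂ E₂]

/-- Conjugation `T ↦ U T U⁻¹` of a bounded operator on `E₁` by a unitary `U : E₁ ≃ₗᵢ[ℂ] E₂`. -/
noncomputable def conj (U : E₁ ≃ₗᵢ[ℂ] E₂) (T : E₁ →L[ℂ] E₁) : E₂ →L[ℂ] E₂ :=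
  (U : E₁ →L[ℂ] E₂).comp (T.comp (U.symm : E₂ →L[ℂ] E₁))

theorem conj_apply (U : E₁ ≃ₗᵢ[ℂ] E₂) (T : E₁ →L[ℂ] E₁) (v : E₂) :
    conj U T v = U (T (U.symm v)) := rfl

theorem conj_mul (U : E₁ ≃ₗᵢ[ℂ] E₂) (S T : E₁ →L[ℂ] E₁) :
    conj U (S * T) = conj U S * conj U T := by
  ext v
  simp [conj_apply]

theorem conj_smul (U : E₁ ≃ₗᵢ[ℂ] E₂) (c : ℂ) (T : E₁ →L[ℂ] E₁) :
    conj U (c • T) = c • conj U T := by
  ext v
  simp [conj_apply]

theorem conj_one (U : E₁ ≃ₗᵢ[ℂ] E₂) : conj U (1 : E₁ →L[ℂ] E₁) = 1 := by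
  ext v
  simp [conj_apply]

theorem conj_symm_conj (U : E₁ ≃ₗᵢ[ℂ] E₂) (T : E₁ →L[ℂ] E₁) : conj U.symm (conj U T) = T := by
  ext v
  simp [conj_apply]

theorem conj_conj_symm (U : E₁ ≃ₗᵢ[ℂ] E₂) (T : E₂ →L[ℂ] E₂) : conj U (conj U.symm T) = T := by
  ext v
  simp [conj_apply]

theorem conj_injective (U : E₁ ≃ₗᵢ[ℂ] E₂) : Function.Injective (conj U) := by
  intro S T h
  rw [← conj_symm_conj U S, h, conj_symm_conj]

section Main

variable [CompleteSpace E₁] [CompleteSpace E₂] {G H : Type*} [Group G] [Group H]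

theorem trans_ne_zero (b : HilbertBasis G ℂ E₁) (g : G) : trans b g ≠ 0 := by
  intro h
  have h1 : trans b g (b 1) = b g := by simp [trans_apply]
  rw [h] at h1
  have h3 : ‖b g‖ = 1 := b.orthonormal.1 g
  rw [← h1] at h3
  simp at h3

/-- The closed span of the basis vectors indexed by a subgroup `K`. -/
noncomputable def subSpace (b : HilbertBasis H ℂ E₂) (K : Subgroup H) : Submodule ℂ E₂ :=
  (Submodule.span ℂ (b '' (K : Set H))).topologicalClosure

instance (b : HilbertBasis H ℂ E₂) (K : Subgroup H) : CompleteSpace (subSpace b K) :=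
  (Submodule.isClosed_topologicalClosure _).completeSpace_coe

/-- The orthogonal projection onto the closed span of `{δ_k : k ∈ K}`. -/
noncomputable def subProj (b : HilbertBasis H ℂ E₂) (K : Subgroup H) : E₂ →L[ℂ] E₂ :=
  (subSpace b K).starProjection

theorem subProj_of_mem (b : HilbertBasis H ℂ E₂) (K : Subgroup H) {k : H} (hk : k ∈ K) :
    subProj b K (b k) = b k := by
  unfold subProj
  rw [Submodule.starProjection_eq_self_iff]
  exact Submodule.le_topologicalClosure _ (Submodule.subset_span ⟨k, hk, rfl⟩)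

theorem subProj_of_not_mem (b : HilbertBasis H ℂ E₂) (K : Subgroup H) {x : H} (hx : x ∉ K) :
    subProj b K (b x) = 0 := by
  unfold subProj
  rw [Submodule.starProjection_apply_eq_zero_iff]
  unfold subSpace
  rw [Submodule.orthogonal_closure, Submodule.mem_orthogonal]
  intro u hu
  induction hu using Submodule.span_induction with
  | mem v hv =>
    obtain ⟨k, hk, rfl⟩ := hv
    refine b.orthonormal.2 ?_
    rintro rfl
    exact hx hk
  | zero => simp
  | add u v _ _ hu hv => rw [inner_add_left, hu, hv, add_zero]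
  | smul c u _ hu => rw [inner_smul_left, hu, mul_zero]

theorem subProj_comm (b : HilbertBasis H ℂ E₂) (K : Subgroup H) {k : H} (hk : k ∈ K) :
    subProj b K * trans b k = trans b k * subProj b K := by
  refine ext_basis b fun x => ?_
  simp only [mul_apply_eq_comp, trans_apply]
  by_cases hx : x ∈ K
  · rw [subProj_of_mem b K hx, subProj_of_mem b K (K.mul_mem hk hx), trans_apply]
  · have hkx : k * x ∉ K := fun h => hx (by simpa using K.mul_mem (K.inv_mem hk) h)
    rw [subProj_of_not_mem b K hx, subProj_of_not_mem b K hkx, map_zero]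

/-- **Group-like spatial isomorphisms come from group isomorphisms.**  Let `U` be a unitary
`ℓ²(G) → ℓ²(H)` with `U L(G) U⁻¹ = L(H)`, and suppose that for every `g` in a generating set
`S` of `G` the operator `U λ(g) U⁻¹` is a scalar multiple of some `λ(h)`.  Then `G ≃* H`. -/
theorem nonempty_mulEquiv (b₁ : HilbertBasis G ℂ E₁) (b₂ : HilbertBasis H ℂ E₂)
    (U : E₁ ≃ₗᵢ[ℂ] E₂)
    (hU : ∀ T : E₁ →L[ℂ] E₁, T ∈ groupVN b₁ ↔ conj U T ∈ groupVN b₂)
    (S : Set G) (hS : Subgroup.closure S = ⊤)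
    (hgen : ∀ g ∈ S, ∃ (c : ℂ) (h : H), conj U (trans b₁ g) = c • trans b₂ h) :
    Nonempty (G ≃* H) := by
  -- the relation that U λ(g) U⁻¹ is a scalar multiple of λ(h)
  set P : G → H → Prop := fun g h => ∃ c : ℂ, conj U (trans b₁ g) = c • trans b₂ h with hP
  have conj_ne : ∀ g, conj U (trans b₁ g) ≠ 0 := by
    intro g h
    apply trans_ne_zero b₁ g
    apply conj_injective U
    rw [h]
    ext v
    simp [conj_apply]
  have P_ne : ∀ (g : G) (h : H) (c : ℂ), conj U (trans b₁ g) = c • trans b₂ h → c ≠ 0 := by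
    rintro g h c hc rfl
    exact conj_ne g (by rw [hc, zero_smul])
  have P_unique : ∀ g h h', P g h → P g h' → h = h' := by
    rintro g h h' ⟨c, hc⟩ ⟨c', hc'⟩
    have hc0 := P_ne g h c hc
    apply eq_of_trans_eq_smul b₂ (c := c⁻¹ * c')
    rw [mul_smul, ← hc', hc, smul_smul, inv_mul_cancel₀ hc0, one_smul]
  have P_one : P 1 1 := ⟨1, by rw [trans_one, trans_one, one_smul]; exact conj_one U⟩
  have P_mul : ∀ g g' h h', P g h → P g' h' → P (g * g') (h * h') := by
    rintro g g' h h' ⟨c, hc⟩ ⟨c', hc'⟩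
    refine ⟨c * c', ?_⟩
    rw [trans_mul, trans_mul]
    change conj U (trans b₁ g * trans b₁ g') = _
    rw [conj_mul, hc, hc', smul_mul_smul_comm]
    rfl
  have P_inv : ∀ g h, P g h → P g⁻¹ h⁻¹ := by
    rintro g h ⟨c, hc⟩
    have hc0 := P_ne g h c hc
    refine ⟨c⁻¹, ?_⟩
    have h1 : conj U (trans b₁ g⁻¹) * conj U (trans b₁ g) = 1 := by
      rw [← conj_mul]
      change conj U ((trans b₁ g⁻¹).comp (trans b₁ g)) = 1
      rw [← trans_mul, inv_mul_cancel, trans_one]
      exact conj_one U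
    have h2 : (c • trans b₂ h) * (c⁻¹ • trans b₂ h⁻¹) = 1 := by
      rw [smul_mul_smul_comm, mul_inv_cancel₀ hc0, one_smul]
      change (trans b₂ h).comp (trans b₂ h⁻¹) = 1
      rw [← trans_mul, mul_inv_cancel, trans_one]
      rfl
    calc conj U (trans b₁ g⁻¹)
        = conj U (trans b₁ g⁻¹) * ((c • trans b₂ h) * (c⁻¹ • trans b₂ h⁻¹)) := by
          rw [h2, mul_one]
      _ = (conj U (trans b₁ g⁻¹) * conj U (trans b₁ g)) * (c⁻¹ • trans b₂ h⁻¹) := by
          rw [hc, mul_assoc]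
      _ = c⁻¹ • trans b₂ h⁻¹ := by rw [h1, one_mul]
  have P_ex : ∀ g, ∃ h, P g h := by
    intro g
    have hg : g ∈ Subgroup.closure S := by rw [hS]; trivial
    induction hg using Subgroup.closure_induction with
    | mem x hx =>
      obtain ⟨c, h, hc⟩ := hgen x hx
      exact ⟨h, c, hc⟩
    | one => exact ⟨1, P_one⟩
    | mul x y _ _ hx hy =>
      obtain ⟨h, hh⟩ := hx
      obtain ⟨h', hh'⟩ := hy
      exact ⟨h * h', P_mul _ _ _ _ hh hh'⟩
    | inv x _ hx =>
      obtain ⟨h, hh⟩ := hx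
      exact ⟨h⁻¹, P_inv _ _ hh⟩
  choose φ hφ using P_ex
  have φ_one : φ 1 = 1 := P_unique 1 _ _ (hφ 1) P_one
  have φ_mul : ∀ g g', φ (g * g') = φ g * φ g' := fun g g' =>
    P_unique _ _ _ (hφ (g * g')) (P_mul _ _ _ _ (hφ g) (hφ g'))
  let Φ : G →* H := ⟨⟨φ, φ_one⟩, φ_mul⟩
  have Φ_inj : Function.Injective Φ := by
    rw [injective_iff_map_eq_one]
    intro g hg
    obtain ⟨c, hc⟩ := hφ g
    have hg' : φ g = 1 := hg
    rw [hg', trans_one] at hc
    have h1 : trans b₁ g = c • trans b₁ 1 := by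
      apply conj_injective U
      rw [hc, conj_smul, trans_one]
      congr 1
      ext v
      simp [conj_apply]
    exact eq_of_trans_eq_smul b₁ h1
  have Φ_surj : Function.Surjective Φ := by
    by_contra hns
    obtain ⟨h₀, hh₀⟩ : ∃ h₀, h₀ ∉ Φ.range := by
      by_contra hall
      exact hns fun h => by
        by_contra hh
        exact hall ⟨h, hh⟩
    set K : Subgroup H := Φ.range with hK
    -- the projection onto `ℓ²(K)`, pulled back to `E₁`, commutes with all translations of `G`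
    have hcomm : conj U.symm (subProj b₂ K) ∈
        Set.centralizer {T | ∃ g : G, IsLeftTranslation b₁ g T} := by
      rw [Set.mem_centralizer_iff]
      rintro T ⟨g, hT⟩
      rw [hT.eq_trans]
      apply conj_injective U
      rw [conj_mul, conj_mul, conj_conj_symm]
      obtain ⟨c, hc⟩ := hφ g
      rw [hc, smul_mul_assoc, mul_smul_comm]
      congr 1
      exact (subProj_comm b₂ K (⟨g, rfl⟩ : φ g ∈ Φ.range)).symm
    have hmem : conj U.symm (trans b₂ h₀) ∈ groupVN b₁ := by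
      rw [hU, conj_conj_symm]
      exact trans_mem_groupVN b₂ h₀
    have h1 := hmem _ hcomm
    have h2 : subProj b₂ K * trans b₂ h₀ = trans b₂ h₀ * subProj b₂ K := by
      have := congrArg (conj U) h1
      rwa [conj_mul, conj_mul, conj_conj_symm, conj_conj_symm] at this
    have h3 := congrArg (fun T : E₂ →L[ℂ] E₂ => T (b₂ 1)) h2
    simp only [mul_apply_eq_comp, trans_apply,
      mul_one] at h3
    rw [subProj_of_not_mem b₂ K hh₀, subProj_of_mem b₂ K K.one_mem, trans_apply, mul_one] at h3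
    have h4 : ‖b₂ h₀‖ = 1 := b₂.orthonormal.1 h₀
    rw [← h3, norm_zero] at h4
    exact zero_ne_one h4
  exact ⟨MulEquiv.ofBijective Φ ⟨Φ_inj, Φ_surj⟩⟩

end Main

end Vale.Agent.Lib.P086
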